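import Crest.Agent.R193.C.En
import Crest.Agent.R193.B.Top

/-!
# R193/FD/Cyl: the covering `ℂ → Z \ {two poles}` with its local sections
-/

set_option autoImplicit false
open Set Metric Filter Topology MeasureTheory

namespace Crest.Agent.R193

/-- the covering map `π`, a global section `lg` and continuous local sections `σ x` near the annulus `lg ⁻¹' strip` -/
structure Cyl (Z : Type) [MetricSpace Z] where
  π : ℂ → Z
  lg : Z → ℂ
  δ : ℝ
  σ : Z → Z → ℂ
  δ_pos : 0 < δ
  cont : Continuous π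
  per : ∀ (z : ℂ) (n : ℤ), π (z + n) = π z
  lg_π : ∀ z, ∃ n : ℤ, lg (π z) = z + n
  π_lg : ∀ y, lg y ∈ strip → π (lg y) = y
  H_cont : Continuous fun y => max (-1) (min 2 (lg y).im)
  sec : ∀ x, (∃ a ∈ ball x δ, lg a ∈ strip) →
    ContinuousOn (σ x) (ball x δ) ∧ ∀ y ∈ ball x δ, π (σ x y) = y ∧ ‖σ x y‖ ≤ 3

variable {Z : Type} [MetricSpace Z]

theorem fd_exp_eq {z z' : ℂ} (h : Complex.exp (2 * Real.pi * Complex.I * z') = Complex.exp (2 * Real.pi * Complex.I * z)) :
    ∃ n : ℤ, z' = z + n := by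
  obtain ⟨n, hn⟩ := Complex.exp_eq_exp_iff_exists_int.1 h
  exact ⟨n, mul_left_cancel₀ Complex.two_pi_I_ne_zero (by rw [hn]; ring)⟩

open Classical in
/-- logarithm on the Riemann sphere -/
noncomputable def fd_lg (p : OnePoint ℂ) : ℂ :=
  OnePoint.rec (-Complex.I) (fun ζ => if ζ = 0 then 2 * Complex.I else Complex.log ζ / (2 * Real.pi * Complex.I)) p

theorem fd_lg_coe {ζ : ℂ} (h : ζ ≠ 0) : fd_lg ζ = Complex.log ζ / (2 * Real.pi * Complex.I) := if_neg h

theorem fd_exp_lg {ζ : ℂ} (h : ζ ≠ 0) : Complex.exp (2 * Real.pi * Complex.I * fd_lg ζ) = ζ := by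
  rw [fd_lg_coe h, mul_div_cancel₀ _ Complex.two_pi_I_ne_zero, Complex.exp_log h]

theorem fd_H_cont : Continuous fun p => max (-1) (min 2 (fd_lg p).im) := by
  have hp : 0 < 2 * Real.pi := by positivity
  have key : ∀ ζ : ℂ, max (-1) (min 2 (fd_lg ζ).im) = -Real.log (min (Real.exp (2 * Real.pi))
      (max (Real.exp (-(2 * (2 * Real.pi)))) ‖ζ‖)) / (2 * Real.pi) := fun ζ => by
    by_cases h : ζ = 0
    · have h1 : fd_lg (ζ : OnePoint ℂ) = 2 * Complex.I := if_pos h
      rw [h1, h, norm_zero, max_eq_left (Real.exp_pos _).le, min_eq_right (Real.exp_le_exp.2 (by linarith)),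
        Real.log_exp]
      field_simp
      norm_num
    · have h1 : (fd_lg ζ).im = -Real.log ‖ζ‖ / (2 * Real.pi) := by
        have h2 := congrArg norm (fd_exp_lg h)
        rw [Complex.norm_exp] at h2
        rw [← h2, Real.log_exp]
        simp
      rw [h1, ← Real.exp_log (norm_pos_iff.2 h), ← Real.exp_monotone.map_max, ← Real.exp_monotone.map_min, Real.log_exp,
        Real.log_exp, ← max_neg_neg, ← min_neg_neg, ← max_div_div_right hp.le, ← min_div_div_right hp.le]
      congr 2 <;> field_simp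
  rw [OnePoint.continuous_iff]
  refine ⟨?_, ?_⟩
  · rw [coclosedCompact_eq_cocompact]
    refine tendsto_const_nhds.congr' ?_
    filter_upwards [(tendsto_norm_cocompact_atTop (E := ℂ)).eventually_ge_atTop (Real.exp (2 * Real.pi))] with ζ h
    rw [key, min_eq_left (h.trans (le_max_right _ _)), Real.log_exp]
    change max (-1) (min 2 (-Complex.I).im) = _
    field_simp
    norm_num
  · simp only [key]
    refine (Continuous.log (by fun_prop) fun ζ => ne_of_gt ?_).neg.div_const _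
    exact lt_min (Real.exp_pos _) (lt_max_of_lt_left (Real.exp_pos _))

theorem exists_cyl [CompactSpace Z] (hs : Nonempty (Z ≃ₜ OnePoint ℂ)) : Nonempty (Cyl Z) := by
  obtain ⟨e⟩ := hs
  set π : ℂ → Z := fun z => e.symm (Complex.exp (2 * Real.pi * Complex.I * z) : ℂ) with hπ
  have hc : Continuous π := e.symm.continuous.comp (OnePoint.continuous_coe.comp (by fun_prop))
  have ho : IsOpenMap π := e.symm.isOpenMap.comp (OnePoint.isOpenMap_coe.comp (Complex.isOpenMap_exp.comp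
    (Homeomorph.mulLeft₀ _ Complex.two_pi_I_ne_zero).isOpenMap))
  have hper : ∀ (z : ℂ) (n : ℤ), π (z + n) = π z := fun z n => by
    simp only [hπ, mul_add, Complex.exp_add]
    rw [mul_comm _ (n : ℂ), Complex.exp_int_mul_two_pi_mul_I, mul_one]
  have hfib : ∀ z z', π z' = π z → ∃ n : ℤ, z' = z + n := fun z z' h =>
    fd_exp_eq (OnePoint.coe_injective (e.symm.injective h))
  have hlg : ∀ y, fd_lg (e y) ∈ strip → π (fd_lg (e y)) = y := fun y hy => by
    rw [hπ, Homeomorph.symm_apply_eq]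
    revert hy
    induction e y using OnePoint.rec with
    | infty => intro hy; exact absurd hy.1 (by change ¬ 0 ≤ (-Complex.I).im; norm_num)
    | coe ζ =>
      intro hy
      by_cases h : ζ = 0
      · have h1 : fd_lg (ζ : OnePoint ℂ) = 2 * Complex.I := if_pos h
        exact absurd hy.2 (by rw [h1]; norm_num)
      · rw [fd_exp_lg h]
  have hH : Continuous fun y => max (-1) (min 2 (fd_lg (e y)).im) := fd_H_cont.comp e.continuous
  set Q : ℝ → Set ℂ := fun a => Ioo a (a + 1) ×ℂ Ioo (-1) 2 with hQ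
  have hQo : ∀ a, IsOpen (Q a) := fun a => isOpen_Ioo.reProdIm isOpen_Ioo
  have hA : IsCompact {y | fd_lg (e y) ∈ strip} := by
    refine IsClosed.isCompact ?_
    convert (isClosed_Icc (a := (0 : ℝ)) (b := 1)).preimage hH using 1
    ext y
    simp only [strip, mem_ofPred_eq, mem_preimage, mem_Icc, le_max_iff, le_min_iff, max_le_iff, min_le_iff]
    norm_num
  obtain ⟨δ, hδ, hL⟩ := lebesgue_number_lemma_of_metric (c := fun a : Icc (-1 : ℝ) 0 => π '' Q a) hA
    (fun a => ho _ (hQo a)) fun y hy => by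
      set z := fd_lg (e y)
      have h1 := Int.floor_le z.re
      have h2 := Int.lt_floor_add_one z.re
      refine mem_iUnion.2 ⟨⟨(z.re - ⌊z.re⌋ - 1) / 2, by constructor <;> linarith⟩, z + (-⌊z.re⌋ : ℤ), ?_,
        (hper _ _).trans (hlg y hy)⟩
      have := hy.1
      have := hy.2
      simp only [hQ, Complex.mem_reProdIm, mem_Ioo, Complex.add_re, Complex.add_im, Complex.intCast_re,
        Complex.intCast_im]
      push_cast
      refine ⟨⟨?_, ?_⟩, ?_, ?_⟩ <;> linarith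
  have key : ∀ x : Z, ∃ s : Z → ℂ, (∃ a ∈ ball x (δ / 2), fd_lg (e a) ∈ strip) →
      ContinuousOn s (ball x (δ / 2)) ∧ ∀ y ∈ ball x (δ / 2), π (s y) = y ∧ ‖s y‖ ≤ 3 := fun x => by
    by_cases h : ∃ a ∈ ball x (δ / 2), fd_lg (e a) ∈ strip
    · obtain ⟨a, ha, ha'⟩ := h
      obtain ⟨i, hi⟩ := hL a ha'
      have h1 : ball x (δ / 2) ⊆ π '' Q i := (ball_subset_ball' (by
        rw [mem_ball, dist_comm] at ha; linarith)).trans hi
      have hinj : InjOn π (Q i) := fun z hz z' hz' h => by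
        obtain ⟨n, rfl⟩ := hfib _ _ h
        have h2 := hz.1
        have h3 := hz'.1
        simp only [mem_preimage, mem_Ioo, Complex.add_re, Complex.intCast_re] at h2 h3
        have h4 : n < 1 := by exact_mod_cast (show (n : ℝ) < 1 by linarith)
        have h5 : -1 < n := by exact_mod_cast (show (-1 : ℝ) < n by linarith)
        simp [show n = 0 by omega]
      refine ⟨Function.invFunOn π (Q i), fun _ => ⟨((ho.domRestrict (hQo i)).continuousOn_image_of_leftInvOn
        hinj.leftInvOn_invFunOn).mono h1, fun y hy => ⟨Function.invFunOn_eq (h1 hy), ?_⟩⟩⟩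
      obtain ⟨⟨h2, h3⟩, h4, h5⟩ := Function.invFunOn_mem (h1 hy)
      refine (Complex.norm_le_abs_re_add_abs_im _).trans ?_
      linarith [abs_le.2 ⟨i.2.1.trans h2.le, h3.le.trans (by linarith [i.2.2] : (i : ℝ) + 1 ≤ 1)⟩,
        abs_le.2 ⟨(by linarith : -2 ≤ (Function.invFunOn π (Q i) y).im), h5.le⟩]
    · exact ⟨0, fun h' => (h h').elim⟩
  choose σ hσ using key
  exact ⟨⟨π, fun y => fd_lg (e y), δ / 2, σ, half_pos hδ, hc, hper, fun z => fd_exp_eq (by
    simp only [hπ, Homeomorph.apply_symm_apply]; exact fd_exp_lg (Complex.exp_ne_zero _)), hlg, hH, hσ⟩⟩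

namespace Cyl
variable (C : Cyl Z)

/-- `x` is close to the annulus -/
def Near (x : Z) : Prop := ∃ a ∈ ball x C.δ, C.lg a ∈ strip

theorem fib {z z' : ℂ} (h : C.π z' = C.π z) : ∃ n : ℤ, z' = z + n := by
  obtain ⟨n, hn⟩ := C.lg_π z
  obtain ⟨m, hm⟩ := C.lg_π z'
  exact ⟨n - m, by rw [h, hn] at hm; push_cast; linear_combination -hm⟩

theorem im_lg (z : ℂ) : (C.lg (C.π z)).im = z.im := by
  obtain ⟨n, hn⟩ := C.lg_π z
  simp [hn]

theorem lg_mem {z : ℂ} : C.lg (C.π z) ∈ strip ↔ z ∈ strip := by simp only [strip, mem_ofPred_eq, im_lg]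

variable {C}

theorem Near.π_σ {x y : Z} (h : C.Near x) (hy : y ∈ ball x C.δ) : C.π (C.σ x y) = y := ((C.sec x h).2 y hy).1

theorem Near.σ_mem {x y : Z} (h : C.Near x) (hy : y ∈ ball x C.δ) : C.σ x y ∈ strip ↔ C.lg y ∈ strip := by
  rw [← C.lg_mem, h.π_σ hy]

theorem Near.int {x : Z} (h : C.Near x) {z : ℂ} (hz : C.π z ∈ ball x C.δ) :
    C.σ x (C.π z) - z ∈ range ((↑) : ℤ → ℂ) := by
  obtain ⟨n, hn⟩ := C.fib (h.π_σ hz)
  exact ⟨n, by rw [hn]; ring⟩

theorem Near.cont {x : Z} (h : C.Near x) :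
    ContinuousOn (fun z => C.σ x (C.π z) - z) (C.π ⁻¹' ball x C.δ) :=
  ((C.sec x h).1.comp C.cont.continuousOn fun _ hz => hz).sub continuousOn_id

/-- a connected set over `ball x δ` lies in one sheet -/
theorem Near.sheet {x : Z} (h : C.Near x) {S : Set ℂ} (hS : IsPreconnected S) (hs : ∀ z ∈ S, C.π z ∈ ball x C.δ) :
    ∃ n : ℤ, ∀ z ∈ S, C.σ x (C.π z) = z + n := by
  rcases S.eq_empty_or_nonempty with rfl | ⟨a, ha⟩
  · exact ⟨0, fun _ h => h.elim⟩
  obtain ⟨n, hn⟩ := h.int (hs a ha)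
  refine ⟨n, fun z hz => ?_⟩
  have := hS.constant_of_mapsTo Complex.isClosedEmbedding_intCast.isEmbedding.isDiscrete_range (h.cont.mono hs)
    (fun z hz => h.int (hs z hz)) hz ha
  linear_combination this - hn

theorem Near.isOpen {x : Z} (h : C.Near x) {O : Set Z} (hO : IsOpen O) (hs : O ⊆ ball x C.δ) :
    IsOpen (C.σ x '' O) := by
  refine isOpen_iff_mem_nhds.2 ?_
  rintro _ ⟨y, hy, rfl⟩
  have h1 : C.π ⁻¹' O ∈ 𝓝 (C.σ x y) := (hO.preimage C.cont).mem_nhds (by rw [mem_preimage, h.π_σ (hs hy)]; exact hy)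
  obtain ⟨r, hr, h2⟩ := Metric.mem_nhds_iff.1 h1
  obtain ⟨n, hn⟩ := h.sheet (convex_ball _ r).isPreconnected fun z hz => hs (h2 hz)
  have h3 := hn _ (mem_ball_self hr)
  rw [h.π_σ (hs hy), left_eq_add] at h3
  exact mem_of_superset (ball_mem_nhds _ hr) fun z hz => ⟨_, h2 hz, by rw [hn z hz, h3, add_zero]⟩

/-- long continua project to sets of definite size -/
theorem le_diam (C : Cyl Z) [CompactSpace Z] {S : Set ℂ} (hS : IsPreconnected S) {a b : ℂ} (ha : a ∈ S) (hb : b ∈ S)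
    (has : a ∈ strip) (hab : 7 ≤ b.re - a.re) : C.δ ≤ diam (C.π '' S) := by
  by_contra h
  have hn : C.Near (C.π a) := ⟨_, mem_ball_self C.δ_pos, C.lg_mem.2 has⟩
  have hs : ∀ z ∈ S, C.π z ∈ ball (C.π a) C.δ := fun z hz => (dist_le_diam_of_mem isBounded_of_compactSpace
    (mem_image_of_mem _ hz) (mem_image_of_mem _ ha)).trans_lt (not_le.1 h)
  obtain ⟨n, h1⟩ := hn.sheet hS hs
  have h2 := (Complex.abs_re_le_norm _).trans ((C.sec _ hn).2 _ (hs a ha)).2
  have h3 := (Complex.abs_re_le_norm _).trans ((C.sec _ hn).2 _ (hs b hb)).2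
  rw [h1 _ ha, abs_le, Complex.add_re] at h2
  rw [h1 _ hb, abs_le, Complex.add_re] at h3
  linarith [h2.1, h3.2]

end Cyl

end Crest.Agent.R193
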