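import Crest.Agent.R193.FD.Tile

/-!
# R193/FD/Est: the moduli are bounded, the functions `w ∘ lg` are asymptotically equicontinuous
-/

set_option autoImplicit false
open Set Metric Filter Topology MeasureTheory

namespace Crest.Agent.R193

variable {Z : Type} [MetricSpace Z] [CompactSpace Z]

/-- a `1`-Lipschitz `I`-periodic function -/
noncomputable def fd_g (I t : ℝ) : ℝ := -(I / (2 * Real.pi) * Real.cos (2 * Real.pi / I * t))

theorem fd_g_lip {I : ℝ} (hI : 0 < I) (s t : ℝ) : |fd_g I s - fd_g I t| ≤ 1 * |s - t| := by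
  have hp := Real.pi_pos
  rw [fd_g, fd_g, neg_sub_neg, ← mul_sub, abs_mul, abs_of_pos (by positivity)]
  refine (mul_le_mul_of_nonneg_left (Real.abs_cos_sub_cos_le _ _) (by positivity)).trans_eq ?_
  rw [← mul_sub, abs_mul, abs_of_pos (by positivity), abs_sub_comm]
  field_simp

theorem fd_g_per {I : ℝ} (hI : 0 < I) (t : ℝ) (n : ℤ) : fd_g I (t + n * I) = fd_g I t := by
  rw [fd_g, fd_g, show 2 * Real.pi / I * (t + n * I) = 2 * Real.pi / I * t + n * (2 * Real.pi) by field_simp,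
    Real.cos_add_int_mul_two_pi]

theorem fd_g_abs {I : ℝ} (hI : 0 < I) (t : ℝ) : |fd_g I t| ≤ I / (2 * Real.pi) := by
  have hp := Real.pi_pos
  rw [fd_g, abs_neg, abs_mul, abs_of_pos (by positivity)]
  exact mul_le_of_le_one_right (by positivity) (Real.abs_cos_le_one _)

namespace Cyl
variable (C : Cyl Z) {Γ : Cov Z}

theorem H_unif : ∃ R : ℝ, 0 < R ∧ ∀ z : ℂ, 0 ≤ z.im → z.im ≤ 1 → ∀ y, dist y (C.π z) < R →
    |(C.lg y).im - z.im| < 1 / 2 := by
  obtain ⟨R, hR, h⟩ := Metric.uniformContinuous_iff.1 (CompactSpace.uniformContinuous_of_continuous C.H_cont)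
    (1 / 2) (by norm_num)
  refine ⟨R, hR, fun z h0 h1 y hy => ?_⟩
  have h2 := h hy
  rw [C.im_lg, min_eq_right (by linarith : z.im ≤ 2), max_eq_right (by linarith : -1 ≤ z.im), Real.dist_eq,
    abs_lt] at h2
  have h3 := h2.1
  have h4 := h2.2
  rw [lt_sub_iff_add_lt, lt_max_iff, lt_min_iff] at h3
  rw [sub_lt_iff_lt_add, max_lt_iff, min_lt_iff] at h4
  exact abs_lt.2 ⟨by rcases h3 with h | h <;> linarith [h], by rcases h4.2 with h | h <;> linarith⟩

theorem I_bound (hd : ∀ a b : Z, dist a b ≤ 1) (hG : LoewG Γ) {K : ℝ} (hK : 1 ≤ K) : ∃ B : ℝ, 0 ≤ B ∧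
    ∀ᶠ k in atTop, ∀ (w u : ℂ → ℝ) (I : ℝ), FRMout (C.tl Γ k) K w u I → I ≤ B := by
  classical
  obtain ⟨R, hR, hH⟩ := C.H_unif
  obtain ⟨D, c, hD, hc, hL⟩ := hG (2 / R) (by positivity)
  have hp := Real.pi_pos
  refine ⟨(Real.pi * (2 * K + √(D * K))) ^ 2, sq_nonneg _, ?_⟩
  filter_upwards [C.ev_sm Γ, ev_le (a := 1) (mul_pos hc hR)] with k hk hk' w u I h
  have hI := h.I_pos
  have hη : ∀ i, osc w (C.tl Γ k i) ≤ √I := fun i => Real.le_sqrt_of_sq_le (by
    rw [h.I_eq]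
    exact Finset.single_le_sum (f := fun i => osc w (C.tl Γ k i) ^ 2) (fun _ _ => sq_nonneg _) (Finset.mem_univ i))
  set v : Z → ℝ := fun y => if C.lg y ∈ strip then fd_g I (u (C.lg y)) else 0 with hv
  have hvπ : ∀ z ∈ strip, v (C.π z) = fd_g I (u z) := fun z hz => by
    obtain ⟨n, hn⟩ := C.lg_π z
    simp only [hv, if_pos (C.lg_mem.2 hz)]
    rw [hn, h.u_int hz, fd_g_per hI]
  set J := C.π '' {z | z.im = 1 / 2} with hJ
  have wall : ∀ α, ∃ E : Set Z, IsPreconnected E ∧ (J ∩ E).Nonempty ∧ R ≤ diam E ∧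
      ∀ y ∈ E, |v y - fd_g I α| ≤ K * √I := fun α => by
    obtain ⟨V, -, h1, h2, ⟨a, ha, ha'⟩, ⟨b, hb, hb'⟩, h3⟩ := h.wall _ hη α
    refine ⟨C.π '' V, h1.image _ C.cont.continuousOn, ?_, ?_, ?_⟩
    · obtain ⟨z, hz, hz'⟩ := h1.intermediate_value ha hb Complex.continuous_im.continuousOn
        (show (1 / 2 : ℝ) ∈ Icc a.im b.im by rw [ha', hb']; norm_num)
      exact ⟨_, ⟨z, hz', rfl⟩, z, hz, rfl⟩
    · by_contra h4
      have := hH a ha'.ge (by linarith) _ ((dist_le_diam_of_mem isBounded_of_compactSpace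
        (mem_image_of_mem _ hb) (mem_image_of_mem _ ha)).trans_lt (not_le.1 h4))
      rw [C.im_lg, ha', hb'] at this
      norm_num at this
    · rintro _ ⟨z, hz, rfl⟩
      rw [hvπ z (h2 hz)]
      exact (fd_g_lip hI _ _).trans (by rw [one_mul]; exact h3 z hz)
  obtain ⟨E, hE, hE1, hE2, hE3⟩ := wall 0
  obtain ⟨F, hF, hF1, hF2, hF3⟩ := wall (I / 2)
  have g0 : fd_g I 0 = -(I / (2 * Real.pi)) := by simp [fd_g]
  have g1 : fd_g I (I / 2) = I / (2 * Real.pi) := by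
    rw [fd_g, show 2 * Real.pi / I * (I / 2) = Real.pi by field_simp]
    simp
  have hs := Real.sqrt_pos.2 hI
  have hs2 := Real.mul_self_sqrt hI.le
  have key : I / Real.pi - 2 * K * √I ≤ √(D * K) * √I := by
    by_cases hαβ : fd_g I 0 + K * √I ≤ fd_g I (I / 2) - K * √I
    · have h1 := hL v E F J _ _ R (C.π 0) k ⟨I / (2 * Real.pi), fun y => by
          simp only [hv]
          split_ifs
          · exact fd_g_abs hI _
          · rw [abs_zero]; positivity⟩ hαβ hE hF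
        (((convex_singleton (1 / 2 : ℝ)).linear_preimage Complex.imLm).isPreconnected.image _ C.cont.continuousOn)
        (fun y hy => subset_closure (by have := (abs_le.1 (hE3 y hy)).2; simp only [mem_ofPred_eq]; linarith))
        (fun y hy => subset_closure (by have := (abs_le.1 (hF3 y hy)).1; simp only [mem_ofPred_eq]; linarith))
        hE1 hF1 hR hE2 hF2 (fun y _ => (hd _ _).trans_lt (by rw [div_mul_cancel₀ _ hR.ne']; norm_num)) (by linarith)
      have h2 : Γ.En k v (thickening R J) ≤ K * I := by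
        refine (En_le _ (fun i => osc u (C.tl Γ k i)) fun x hx hx' => Or.inr ?_).trans h.u_en
        have h3 : ∀ y ∈ Γ.cell k x, C.lg y ∈ strip := fun y hy => by
          obtain ⟨_, ⟨z, hz, rfl⟩, h4⟩ := mem_thickening_iff.1 (hx' hy)
          have h5 : z.im = 1 / 2 := hz
          have h6 := abs_lt.1 (hH z (by linarith) (by linarith) y h4)
          exact ⟨by linarith [h6.1], by linarith [h6.2]⟩
        have h4 : x ∈ C.idx Γ k := mem_idx.2 ⟨hx, x, Γ.mem_cell k x, h3 x (Γ.mem_cell k x)⟩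
        have h5 : C.tl Γ k ⟨x, h4⟩ ⊆ strip := fun z hz => C.lg_mem.1 (h3 _ (hk.π_mem hz))
        obtain ⟨M, hM⟩ := h.u_bdd 3
        refine ⟨h4, Finset.mem_filter.2 ⟨Finset.mem_univ _, h5⟩, le_of_eq_of_le ?_ ((osc_lip (v := u)
          (B := C.tl Γ k ⟨x, h4⟩) ((isBounded_closedBall (x := (0 : ℝ)) (r := M)).subset ?_) zero_le_one
          (fd_g_lip hI)).trans_eq (one_mul _))⟩
        · rw [tl, ← osc_comp]
          exact osc_congr fun y hy => by
            rw [← hvπ _ (h5 (mem_image_of_mem _ hy)), (hk.near ⟨x, h4⟩).π_σ (hk.sub x hy)]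
        · rintro _ ⟨z, hz, rfl⟩
          exact mem_closedBall_zero_iff.2 (hM z (h5 hz) (hk.norm_le hz))
      rw [← Real.sqrt_mul (by positivity)]
      refine Real.le_sqrt_of_sq_le (le_of_eq_of_le ?_ (h1.trans ((mul_le_mul_of_nonneg_left h2 hD).trans_eq
        (by ring))))
      rw [g0, g1]
      ring
    · rw [g0, g1] at hαβ
      have : I / Real.pi = 2 * (I / (2 * Real.pi)) := by ring
      linarith [mul_nonneg (Real.sqrt_nonneg (D * K)) hs.le]
  rw [sub_le_iff_le_add, div_le_iff₀ hp] at key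
  rw [← Real.sq_sqrt hI.le]
  exact pow_le_pow_left₀ hs.le (le_of_mul_le_mul_right (by linarith) hs) 2

theorem equi (hs : Nonempty (Z ≃ₜ OnePoint ℂ)) (hd : ∀ a b : Z, dist a b ≤ 1) (hL : LoewL Γ) {K B ε : ℝ}
    (hB : 0 ≤ B) (hε : 0 < ε) : ∃ τ : ℝ, 0 < τ ∧ ∀ᶠ k in atTop, ∀ (w u : ℂ → ℝ) (I : ℝ),
      FRMout (C.tl Γ k) K w u I → I ≤ B → ∀ x y, dist y x < τ → w (C.lg y) - w (C.lg x) ≤ ε := by
  have := sph_connected hs
  obtain ⟨τ, hτ, hL⟩ := hL ((ε / 3) ^ 2 / (B + 1)) (by positivity)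
  have hδ := C.δ_pos
  have hL0 := Γ.L_pos
  refine ⟨τ * C.δ / 2 / Γ.L, by positivity, ?_⟩
  filter_upwards [C.ev_sm Γ, ev_le (a := Γ.L + 1) (show 0 < τ * C.δ / 2 by positivity)] with k hk hk' w u I h hI x y hxy
  by_contra hc
  obtain ⟨J, -, hJ, hJ1, hJ2⟩ := Γ.llc1 hd x (show 0 < τ * C.δ / 2 / Γ.L by positivity)
  rw [mul_div_cancel₀ _ hL0.ne'] at hJ2
  have key : ∀ s₁ s₂, w (C.lg x) ≤ s₁ → s₁ < s₂ → s₂ ≤ w (C.lg y) → ∃ s ∈ Ioo s₁ s₂, ∃ E : Set Z,
      IsPreconnected E ∧ E ⊆ closure {z | w (C.lg z) ≤ s} ∧ E ⊆ closure {z | s ≤ w (C.lg z)} ∧ C.δ ≤ diam E ∧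
        (E ∩ ball x (τ * C.δ)).Nonempty := fun s₁ s₂ h1 h2 h3 => by
    have h0 := (h.w_mem (C.lg x)).1
    have h0' := (h.w_mem (C.lg y)).2
    obtain ⟨s, hs, hg⟩ := h.good s₁ s₂ (h0.trans h1) h2 (h3.trans h0')
    obtain ⟨q, hq, hq'⟩ := Cut.inter_frontier (v := fun y => w (C.lg y)) (s := s)
      ⟨⟨x, hJ1 (mem_ball_self (by positivity)), h1.trans hs.1.le⟩, y, hJ1 hxy, hs.2.trans_le h3⟩ hJ
    obtain ⟨x', hx', -, h4, h5⟩ := Γ.exists_cell k q
    obtain ⟨⟨a, ha, ha'⟩, b, hb, hb'⟩ := cut_of_frontier (Γ.isOpen k x') ⟨q, h4 (mem_ball_self (sc_pos k)), hq'⟩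
    have h6 : x' ∈ C.idx Γ k := by
      by_contra h6
      have := abs_sub_le_osc ((h.bddW C.lg).isBounded _) hb ha
      rw [osc_zero h hx' h6] at this
      linarith [(abs_le.1 this).2]
    have h7 : ∀ z ∈ Γ.cell k x', C.σ x' z ∈ tile (C.tl Γ k) (⟨x', h6⟩, 0) ∧ w (C.σ x' z) = w (C.lg z) := fun z hz =>
      ⟨⟨z, hz, by simp⟩, by rw [← h.dn C (C.σ x' z), (hk.near ⟨x', h6⟩).π_σ (hk.sub x' hz)]⟩
    obtain ⟨H, -, hH, hH1, ⟨z, hz, hz'⟩, a', ha1, b', hb1, hab⟩ := hg (⟨x', h6⟩, 0)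
      ⟨_, (h7 a ha).1, (h7 a ha).2.trans_le ha'⟩ ⟨_, (h7 b hb).1, hb'.trans_eq (h7 b hb).2.symm⟩ 7
    have h8 : H ⊆ closure {z | w z ≤ s} := fun z hz => by
      have := (hH1 hz).2
      rw [← mem_compl_iff, ← closure_compl] at this
      exact closure_mono (fun z (hz : ¬ s < w z) => not_lt.1 hz) this
    have h9 : H ⊆ closure {z | s < w z} := fun z hz => (hH1 hz).1
    refine ⟨s, hs, C.π '' H, hH.image _ C.cont.continuousOn, ?_, ?_, C.le_diam hH ha1 hb1 ⟨?_, ?_⟩ hab,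
      _, mem_image_of_mem _ hz, ?_⟩
    · refine (image_mono h8).trans ((image_closure_subset_closure_image C.cont).trans (closure_mono ?_))
      rintro _ ⟨z, hz, rfl⟩
      exact (h.dn C z).trans_le hz
    · refine (image_mono h9).trans ((image_closure_subset_closure_image C.cont).trans (closure_mono ?_))
      rintro _ ⟨z, hz, rfl⟩
      exact (le_of_lt hz).trans_eq (h.dn C z).symm
    · refine closure_minimal (t := {z : ℂ | 0 ≤ z.im}) (fun z hz => le_of_not_gt fun h' : z.im < 0 => ?_)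
        (isClosed_le continuous_const Complex.continuous_im) (h9 ha1)
      have : s < w z := hz
      linarith [h.w_bot z h', hs.1]
    · refine closure_minimal (t := {z : ℂ | z.im ≤ 1}) (fun z hz => le_of_not_gt fun h' : 1 < z.im => ?_)
        (isClosed_le Complex.continuous_im continuous_const) (h8 ha1)
      have : w z ≤ s := hz
      linarith [h.w_top z h', hs.2]
    · have h10 := h5 (hk.π_tile hz')
      have h11 := hJ2 hq
      rw [mem_ball] at h10 h11 ⊢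
      linarith [dist_triangle (C.π z) q x]
  obtain ⟨s, hs, E, hE, hE1, -, hE2, hE3⟩ := key (w (C.lg x)) (w (C.lg x) + ε / 3) le_rfl (by linarith) (by linarith)
  obtain ⟨t, ht, F, hF, -, hF1, hF2, hF3⟩ := key (w (C.lg y) - ε / 3) (w (C.lg y)) (by linarith) (by linarith) le_rfl
  have h1 : ε / 3 ≤ t - s := by linarith [hs.2, ht.1]
  have h2 := hL _ E F s t C.δ x k (h.bddW C.lg) (by linarith) hE hF hE1 hF1 hδ hE2 hF2 hE3 hF3
    (by nlinarith [sc_pos k])
  have h3 := mul_le_mul_of_nonneg_left ((hk.En_dn h (ball x C.δ)).trans hI)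
    (show 0 ≤ (ε / 3) ^ 2 / (B + 1) by positivity)
  have h4 := (pow_le_pow_left₀ (by positivity) h1 2).trans (h2.trans h3)
  rw [div_mul_eq_mul_div, le_div_iff₀ (by positivity)] at h4
  nlinarith [sq_pos_of_pos hε]

end Cyl

end Crest.Agent.R193
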