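import Crest.Agent.R193.FD.Est

/-!
# R193/FD/Loc: transfer of `FRMfine` to a ball of the sphere
-/

set_option autoImplicit false
open Set Metric Filter Topology MeasureTheory

namespace Crest.Agent.R193

variable {Z : Type} [MetricSpace Z] [CompactSpace Z]

namespace Cyl
variable {C : Cyl Z} {Γ : Cov Z} {k : ℕ} {K I : ℝ} {w u : ℂ → ℝ} {x₀ : Z} {ρ : ℝ}

/-- truncate upstairs and project -/
theorem Near.proj (h : C.Near x₀) (hρ : 0 < ρ) (hδ : ρ ≤ C.δ) {E : Set ℂ} (hE : IsCompact E)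
    (hE' : IsPreconnected E) {x : Z} (hx : x ∈ ball x₀ (ρ / 4)) (hxE : C.σ x₀ x ∈ E) :
    ∃ E' : Set Z, IsPreconnected E' ∧ E' ⊆ ball x₀ ρ ∧ x ∈ E' ∧ (∀ y ∈ E', C.σ x₀ y ∈ E) ∧
      (E ⊆ C.σ x₀ '' E' ∨ ρ / 4 ≤ diam E') := by
  have h1 : closedBall x₀ (3 * ρ / 4) ⊆ ball x₀ ρ := closedBall_subset_ball (by linarith)
  have h2 : ball x₀ ρ ⊆ ball x₀ C.δ := ball_subset_ball hδ
  set Y := C.σ x₀ '' closedBall x₀ (3 * ρ / 4) with hY
  have hx' : x ∈ closedBall x₀ (3 * ρ / 4) := ball_subset_closedBall (ball_subset_ball (by linarith) hx)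
  have key : ∀ K ⊆ E ∩ Y, IsPreconnected K → C.σ x₀ x ∈ K → IsPreconnected (C.π '' K) ∧ C.π '' K ⊆ ball x₀ ρ ∧
      x ∈ C.π '' K ∧ (∀ y ∈ C.π '' K, C.σ x₀ y ∈ E) ∧ K ⊆ C.σ x₀ '' (C.π '' K) := fun K hK hK' hxK => by
    have h3 : ∀ z ∈ K, C.π z ∈ ball x₀ ρ ∧ C.σ x₀ (C.π z) = z := fun z hz => by
      obtain ⟨y, hy, rfl⟩ := (hK hz).2
      rw [h.π_σ (h2 (h1 hy))]
      exact ⟨h1 hy, rfl⟩
    refine ⟨hK'.image _ C.cont.continuousOn, ?_, ⟨_, hxK, h.π_σ (h2 (h1 hx'))⟩, ?_,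
      fun z hz => ⟨_, mem_image_of_mem _ hz, (h3 z hz).2⟩⟩
    · rintro _ ⟨z, hz, rfl⟩
      exact (h3 z hz).1
    · rintro _ ⟨z, hz, rfl⟩
      rw [(h3 z hz).2]
      exact (hK hz).1
  by_cases hn : E ⊆ Y
  · obtain ⟨k1, k2, k3, k4, k5⟩ := key E (subset_inter Subset.rfl hn) hE' hxE
    exact ⟨_, k1, k2, k3, k4, Or.inl k5⟩
  · obtain ⟨K, -, hK, hK1, hK2, z, hz, hz'⟩ := bump hE hE' (isClosed_closedBall.isCompact.image_of_continuousOn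
      ((C.sec _ h).1.mono (h1.trans h2))).isClosed hxE (mem_image_of_mem _ hx') hn
    obtain ⟨k1, k2, k3, k4, -⟩ := key K hK1 hK hK2
    refine ⟨_, k1, k2, k3, k4, Or.inr ?_⟩
    obtain ⟨y, hy, rfl⟩ := (hK1 hz).2
    have h3 : 3 * ρ / 4 ≤ dist y x₀ := by
      by_contra h3
      obtain ⟨a, ha, ha'⟩ := mem_closure_iff.1 hz' _ (h.isOpen isOpen_ball (ball_subset_closedBall.trans (h1.trans h2)))
        (mem_image_of_mem _ (mem_ball.2 (not_le.1 h3)))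
      exact ha'.2 (image_mono ball_subset_closedBall ha)
    have h4 := dist_le_diam_of_mem (s := C.π '' K) isBounded_of_compactSpace
      (⟨_, hz, h.π_σ (h2 (h1 hy))⟩ : y ∈ C.π '' K) k3
    linarith [dist_triangle y x x₀, mem_ball.1 hx]

theorem locAt (hk : C.Sm Γ k) (h : FRMout (C.tl Γ k) K w u I) {η B : ℝ} (hK : 1 ≤ K) (hη0 : 0 ≤ η)
    (hη : ∀ i, osc w (C.tl Γ k i) ≤ η) (hf : FRMfine (C.tl Γ k) K w u (K * η)) (hI : I ≤ B) (hρ : 0 < ρ)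
    (hδ : ρ ≤ C.δ) (hW : ∀ y ∈ ball x₀ ρ, w (C.lg y) ∈ Icc (3 / 8 : ℝ) (5 / 8)) :
    LocAt Γ x₀ ρ (K * B + B + K) k ((ball x₀ ρ).indicator fun y => u (C.σ x₀ y)) (fun y => w (C.lg y))
      (2 * (K * η)) := by
  classical
  have hb : ball x₀ ρ ⊆ ball x₀ C.δ := ball_subset_ball hδ
  have hb4 : ball x₀ (ρ / 4) ⊆ ball x₀ ρ := ball_subset_ball (by linarith)
  have hlg : ∀ y ∈ ball x₀ ρ, C.lg y ∈ strip := fun y hy =>
    h.mem_strip (by linarith [(hW y hy).1]) (by linarith [(hW y hy).2])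
  have hn : C.Near x₀ := ⟨x₀, mem_ball_self C.δ_pos, hlg _ (mem_ball_self hρ)⟩
  have hσ : ∀ y ∈ ball x₀ ρ, C.σ x₀ y ∈ strip := fun y hy => (hn.σ_mem (hb hy)).2 (hlg y hy)
  have hw : ∀ y ∈ ball x₀ ρ, w (C.lg y) = w (C.σ x₀ y) := fun y hy => by
    rw [← h.dn C (C.σ x₀ y), hn.π_σ (hb hy)]
  have hW' : ∀ y ∈ ball x₀ ρ, w (C.σ x₀ y) ∈ Icc (3 / 8 : ℝ) (5 / 8) := fun y hy => hw y hy ▸ hW y hy
  set U := (ball x₀ ρ).indicator fun y => u (C.σ x₀ y) with hU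
  have hu : ∀ y ∈ ball x₀ ρ, U y = u (C.σ x₀ y) := fun y hy => indicator_of_mem hy _
  have hKη : 0 ≤ K * η := by positivity
  have hB : 0 ≤ B := h.I_pos.le.trans hI
  have cell : ∀ x ∈ Γ.net k, Γ.cell k x ⊆ ball x₀ ρ → ∃ (hx : x ∈ C.idx Γ k) (n : ℤ), C.tl Γ k ⟨x, hx⟩ ⊆ strip ∧
      C.σ x₀ '' Γ.cell k x = tile (C.tl Γ k) (⟨x, hx⟩, n) ∧ osc U (Γ.cell k x) = osc u (C.tl Γ k ⟨x, hx⟩) :=
    fun x hx hc => by
    have h1 : x ∈ C.idx Γ k := mem_idx.2 ⟨hx, x, Γ.mem_cell k x, hlg x (hc (Γ.mem_cell k x))⟩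
    have h2 : C.tl Γ k ⟨x, h1⟩ ⊆ strip := fun z hz => C.lg_mem.1 (hlg _ (hc (hk.π_mem hz)))
    obtain ⟨n, h3⟩ := hn.sheet (hk.conn ⟨x, h1⟩) fun z hz => hb (hc (hk.π_mem hz))
    have h4 : ∀ y ∈ Γ.cell k x, C.σ x₀ y = C.σ x y + n := fun y hy => by
      rw [← h3 _ (mem_image_of_mem _ hy), (hk.near ⟨x, h1⟩).π_σ (hk.sub x hy)]
    refine ⟨h1, n, h2, Subset.antisymm ?_ fun z ⟨y, hy, hy'⟩ => ⟨y, hy, by rw [h4 y hy, hy']; simp⟩, ?_⟩
    · rintro _ ⟨y, hy, rfl⟩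
      exact ⟨y, hy, by rw [h4 y hy]; simp⟩
    · rw [tl, ← osc_comp, ← div_one (osc (fun y => u (C.σ x y)) _), ← osc_affine _ _ (-(n * I)) one_pos]
      exact osc_congr fun y hy => by
        rw [hu y (hc hy), h4 y hy, h.u_int (h2 (mem_image_of_mem _ hy))]
        ring
  refine ⟨by positivity, ?_, h.bddW _, fun x hx hc => ?_, fun α β s₁ s₂ hαβ hs => ?_, ?_, fun x hx z hz => ?_,
    fun y hy => ?_, fun y hy => ?_⟩
  · obtain ⟨M, hM⟩ := h.u_bdd 3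
    refine ⟨max M 0, fun y => ?_⟩
    by_cases hy : y ∈ ball x₀ ρ
    · rw [hu y hy]
      exact (hM _ (hσ y hy) ((C.sec _ hn).2 y (hb hy)).2).trans (le_max_left _ _)
    · rw [hU, indicator_of_notMem hy, abs_zero]
      exact le_max_right _ _
  · obtain ⟨h1, -, h2, -, h3⟩ := cell x hx hc
    rw [h3, hk.osc_dn h ⟨x, h1⟩]
    nlinarith [h.u_osc η hη _ h2, hη ⟨x, h1⟩]
  · set S := (Γ.net k).filter fun x => Γ.cell k x ⊆ ball x₀ ρ ∧
      ∃ z ∈ Γ.cell k x, U z ∈ Icc α β ∧ w (C.lg z) ∈ Icc s₁ s₂ with hS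
    have hc := fun x : S => cell x (Finset.mem_filter.1 x.2).1 (Finset.mem_filter.1 x.2).2.1
    choose h1 n h2 h3 h4 using hc
    let e : S ↪ C.idx Γ k × ℤ := ⟨fun x => (⟨x, h1 x⟩, n x), fun x y hxy =>
      Subtype.ext (congrArg (fun p => p.1.1) hxy)⟩
    have h5 := hf.box α β (max (3 / 8) (min s₁ (5 / 8))) (max (3 / 8) (min s₂ (5 / 8))) (Finset.univ.map e) hαβ
      (le_max_of_le_left (by norm_num)) (max_le_max le_rfl (min_le_min hs le_rfl))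
      (max_le (by norm_num) (min_le_of_right_le (by norm_num))) fun p hp => by
        obtain ⟨x, -, rfl⟩ := Finset.mem_map.1 hp
        obtain ⟨-, hc, z, hz, hz1, hz2⟩ := Finset.mem_filter.1 x.2
        rw [hu z (hc hz)] at hz1
        rw [hw z (hc hz)] at hz2
        exact ⟨_, h3 x ▸ mem_image_of_mem _ hz, hz1, max_le (hW' z (hc hz)).1 (min_le_of_left_le hz2.1),
          le_max_of_le_right (le_min hz2.2 (hW' z (hc hz)).2)⟩
    rw [Finset.sum_map] at h5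
    rw [← Finset.sum_coe_sort]
    refine le_of_eq_of_le (Finset.sum_congr rfl fun x _ => ?_) (h5.trans ?_)
    · have hc := (Finset.mem_filter.1 x.2).2.1
      have he : tile (C.tl Γ k) (e x) = C.σ x₀ '' Γ.cell k x := (h3 x).symm
      rw [he, ← osc_comp, ← osc_comp, osc_congr fun y hy => hu y (hc hy), osc_congr fun y hy => hw y (hc hy)]
    · have h6 : max (3 / 8) (min s₂ (5 / 8)) - max (3 / 8) (min s₁ (5 / 8)) ≤ s₂ - s₁ := by
        simp only [max_def, min_def]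
        split_ifs <;> linarith
      have h7 : max (3 / 8) (min s₁ (5 / 8)) ≤ max (3 / 8) (min s₂ (5 / 8)) := max_le_max le_rfl (min_le_min hs le_rfl)
      refine mul_le_mul (by nlinarith) (mul_le_mul (by linarith) (by linarith) (by linarith) (by linarith))
        (mul_nonneg (by linarith) (by linarith)) (by positivity)
  · have h1 : Γ.En k U (ball x₀ ρ) ≤ K * I := (En_le _ (fun i => osc u (C.tl Γ k i)) fun x hx hc => by
      obtain ⟨h1, -, h2, -, h3⟩ := cell x hx hc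
      exact Or.inr ⟨h1, Finset.mem_filter.2 ⟨Finset.mem_univ _, h2⟩, h3.le⟩).trans h.u_en
    nlinarith [hk.En_dn h (ball x₀ ρ)]
  · obtain ⟨E, e1, e2, -, e3, e4, e5⟩ := hf.conn _ _ (hW' x (hb4 hx)) (hW' z (hb4 hz))
    obtain ⟨E', k1, k2, k3, k4, k5⟩ := hn.proj hρ hδ e1 e2 hx e3
    refine ⟨E', k1, k2, k3, k5.imp_left fun h5 => ?_, fun y hy => ?_⟩
    · obtain ⟨y, hy, hy'⟩ := h5 e4
      rwa [← hn.π_σ (hb (hb4 hz)), ← hy', hn.π_σ (hb (k2 hy))]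
    · rw [hu y (k2 hy), hu x (hb4 hx), hu z (hb4 hz), hw y (k2 hy), hw x (hb4 hx), hw z (hb4 hz)]
      exact ⟨by linarith [(e5 _ (k4 y hy)).1], by linarith [(e5 _ (k4 y hy)).2]⟩
  · obtain ⟨E, e1, e2, -, e3, ⟨b, e4, e4'⟩, e5⟩ := hf.escU _ (hW' y (hb4 hy))
    obtain ⟨E', k1, k2, k3, k4, k5⟩ := hn.proj hρ hδ e1 e2 hy e3
    refine ⟨E', k1, k2, k3, k5.resolve_left fun h5 => ?_, fun z hz => ?_⟩
    · obtain ⟨r, hr, h6⟩ := Metric.isOpen_iff.1 (hn.isOpen isOpen_ball hb) b (image_mono k2 (h5 e4))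
      obtain ⟨z, hz, hz'⟩ := h6 (show b - (r / 2 : ℝ) * Complex.I ∈ ball b r by
        simp [abs_of_pos hr, hr])
      have := (hσ z hz).1
      rw [hz'] at this
      simp [e4'] at this
      linarith
    · rw [hu z (k2 hz), hu y (hb4 hy)]
      linarith [e5 _ (k4 z hz)]
  · obtain ⟨E, e1, e2, -, e3, ⟨b, e4, e4'⟩, e5⟩ := hf.escW _ (hW' y (hb4 hy)) 7
    obtain ⟨E', k1, k2, k3, k4, k5⟩ := hn.proj hρ hδ e1 e2 hy e3
    refine ⟨E', k1, k2, k3, k5.resolve_left fun h5 => ?_, fun z hz => ?_⟩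
    · obtain ⟨z, hz, rfl⟩ := h5 e4
      have h6 := (Complex.abs_re_le_norm _).trans ((C.sec _ hn).2 _ (hb (k2 hz))).2
      have h7 := (Complex.abs_re_le_norm _).trans ((C.sec _ hn).2 _ (hb (hb4 hy))).2
      linarith [abs_sub (C.σ x₀ z).re (C.σ x₀ y).re]
    · rw [hw z (k2 hz), hw y (hb4 hy)]
      linarith [e5 _ (k4 z hz)]

end Cyl

end Crest.Agent.R193
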