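import Crest.Agent.R193.FD.Loc
import Crest.Agent.R193.FU.Main

/-!
# R193/FD/Main: approximate conformal maps on the sphere.  Blueprint: notes193/R193.md.  The statements below are FROZEN; the block owner fills them.
-/

set_option autoImplicit false
open Set Metric Filter Topology MeasureTheory

namespace Crest.Agent.R193

variable {Z : Type} [MetricSpace Z] [CompactSpace Z]

omit [CompactSpace Z] in
theorem fd_limit {f : ℕ → Z → ℝ} (hb : ∀ y, ∀ᶠ k in 𝒰, f k y ∈ Icc (0 : ℝ) 1)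
    (he : ∀ ε : ℝ, 0 < ε → ∃ τ : ℝ, 0 < τ ∧ ∀ᶠ k in 𝒰, ∀ x y, dist y x < τ → f k y - f k x ≤ ε) :
    ∃ W : Z → ℝ, Continuous W ∧ ∀ y, Tendsto (fun k => f k y) 𝒰 (𝓝 (W y)) := by
  have h := fun y => isCompact_Icc.ultrafilter_le_nhds (Ultrafilter.map (fun k => f k y) (hyperfilter ℕ))
    (le_principal_iff.2 (hb y))
  choose W _ hW using h
  have hW' : ∀ y, Tendsto (fun k => f k y) 𝒰 (𝓝 (W y)) := hW
  refine ⟨W, Metric.continuous_iff.2 fun x ε hε => ?_, hW'⟩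
  obtain ⟨τ, hτ, h⟩ := he (ε / 2) (half_pos hε)
  refine ⟨τ, hτ, fun y hy => ?_⟩
  have h1 := le_of_tendsto ((hW' y).sub (hW' x)) (h.mono fun k hk => hk x y hy)
  have h2 := le_of_tendsto ((hW' x).sub (hW' y)) (h.mono fun k hk => hk y x (by rwa [dist_comm]))
  rw [Real.dist_eq, abs_lt]
  constructor <;> linarith

theorem exists_loc (Γ : Cov Z) (hs : Nonempty (Z ≃ₜ OnePoint ℂ)) (hd : ∀ a b : Z, dist a b ≤ 1)
    (hG : LoewG Γ) (hL : LoewL Γ) : Loc Γ := by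
  obtain ⟨C⟩ := exists_cyl hs
  have := sph_connected hs
  obtain ⟨N, hN⟩ := C.tiling Γ
  obtain ⟨K, hK, hF⟩ := frm N
  have h0 : ∀ k, ∃ (w u : ℂ → ℝ) (I : ℝ), C.Sm Γ k → FRMout (C.tl Γ k) K w u I := fun k => by
    by_cases hk : C.Sm Γ k
    · obtain ⟨w, u, I, h⟩ := hF _ _ (hN k hk)
      exact ⟨w, u, I, fun _ => h⟩
    · exact ⟨0, 0, 0, fun h => (hk h).elim⟩
  choose w u I h0 using h0
  have hsm : ∀ᶠ k in 𝒰, C.Sm Γ k := 𝒰_le (C.ev_sm Γ)
  have ho : ∀ᶠ k in 𝒰, FRMout (C.tl Γ k) K (w k) (u k) (I k) := hsm.mono h0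
  obtain ⟨B, hB, hI⟩ := C.I_bound hd hG hK
  have hI' : ∀ᶠ k in 𝒰, I k ≤ B := by
    filter_upwards [𝒰_le hI, ho] with k h1 h2 using h1 _ _ _ h2
  have he : ∀ ε : ℝ, 0 < ε → ∃ τ : ℝ, 0 < τ ∧ ∀ᶠ k in 𝒰, ∀ x y, dist y x < τ →
      w k (C.lg y) - w k (C.lg x) ≤ ε := fun ε hε => by
    obtain ⟨τ, hτ, h⟩ := C.equi hs hd hL (K := K) hB hε
    refine ⟨τ, hτ, ?_⟩
    filter_upwards [𝒰_le h, ho, hI'] with k h1 h2 h3 using h1 _ _ _ h2 h3
  obtain ⟨W, hWc, hW⟩ := fd_limit (f := fun k y => w k (C.lg y)) (fun y => ho.mono fun k h => h.w_mem _) he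
  have W0 : W (C.π (-Complex.I)) = 0 := tendsto_nhds_unique (hW _) (tendsto_const_nhds.congr' (ho.mono fun k h =>
    (h.w_bot _ (by rw [C.im_lg]; norm_num)).symm))
  have W1 : W (C.π (2 * Complex.I)) = 1 := tendsto_nhds_unique (hW _) (tendsto_const_nhds.congr' (ho.mono fun k h =>
    (h.w_top _ (by rw [C.im_lg]; norm_num)).symm))
  obtain ⟨x₀, hx₀⟩ : (frontier {y | 1 / 2 < W y}).Nonempty := nonempty_frontier_iff.2
    ⟨⟨C.π (2 * Complex.I), by rw [mem_ofPred_eq, W1]; norm_num⟩, fun h => by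
      have : C.π (-Complex.I) ∈ {y | 1 / 2 < W y} := h ▸ mem_univ _
      rw [mem_ofPred_eq, W0] at this
      norm_num at this⟩
  have hx : 1 / 2 = W x₀ := frontier_lt_subset_eq continuous_const hWc hx₀
  set η : ℕ → ℝ := fun k => ⨆ i, osc (w k) (C.tl Γ k i) with hη
  have η0 : ∀ k, 0 ≤ η k := fun k => Real.iSup_nonneg fun _ => osc_nonneg _ _
  have η1 : ∀ k i, osc (w k) (C.tl Γ k i) ≤ η k := fun k i =>
    le_ciSup (Finite.bddAbove_range fun i => osc (w k) (C.tl Γ k i)) i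
  have η2 : Tendsto η 𝒰 (𝓝 0) := by
    refine tendsto_order.2 ⟨fun a ha => Eventually.of_forall fun k => ha.trans_le (η0 k), fun a ha => ?_⟩
    obtain ⟨τ, hτ, h⟩ := he (a / 2) (half_pos ha)
    filter_upwards [h, hsm, ho, 𝒰_le (Cyl.ev_le (a := 2 * Γ.L) hτ)] with k h1 h2 h3 h4
    refine (Real.iSup_le (fun i => ?_) (half_pos ha).le).trans_lt (half_lt_self ha)
    rw [← h2.osc_dn h3]
    refine osc_le (half_pos ha).le fun y hy x hx => h1 x y ?_
    linarith [dist_triangle_right y x i.1, mem_ball.1 (Γ.sup k _ hy), mem_ball.1 (Γ.sup k _ hx)]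
  have η3 : Tendsto (fun k => K * η k) 𝒰 (𝓝 0) := by simpa using η2.const_mul K
  obtain ⟨τ, hτ, hτ'⟩ := he (1 / 16) (by norm_num)
  refine ⟨x₀, min τ C.δ, K * B + B + K, fun k => (ball x₀ (min τ C.δ)).indicator fun y => u k (C.σ x₀ y),
    fun k y => w k (C.lg y), fun k => 2 * (K * η k), lt_min hτ C.δ_pos, by positivity,
    by simpa using η3.const_mul 2, ?_, fun r hr => ?_⟩
  · filter_upwards [hsm, ho, hI', hτ', η3.eventually (ge_mem_nhds (show (0 : ℝ) < 1 / 16 by norm_num)),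
      (hW x₀).eventually (Icc_mem_nhds (by linarith : 7 / 16 < W x₀) (by linarith : W x₀ < 9 / 16))]
      with k h1 h2 h3 h4 h5 h6
    refine Cyl.locAt h1 h2 hK (η0 k) (η1 k) (h2.fine _ (η1 k) h5 fun i ⟨a, ha, ha'⟩ ⟨b, hb, hb'⟩ z hz => ?_) h3
      (lt_min hτ C.δ_pos) (min_le_right _ _) fun y hy => ?_
    · have h7 : ∀ a ∈ C.tl Γ k i, |w k a - w k z| ≤ η k := fun a ha =>
        (abs_sub_le_osc ((h2.bddW id).isBounded _) ha hz).trans (η1 k i)
      have h8 : η k ≤ K * η k := le_mul_of_one_le_left (η0 k) hK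
      exact h2.mem_strip (by linarith [(abs_le.1 (h7 b hb)).2]) (by linarith [(abs_le.1 (h7 a ha)).1])
    · have h7 : dist y x₀ < τ := (mem_ball.1 hy).trans_le (min_le_left _ _)
      exact ⟨by linarith [h4 y x₀ (by rwa [dist_comm]), h6.1], by linarith [h4 x₀ y h7, h6.2]⟩
  · obtain ⟨a, ha, ha'⟩ := Metric.mem_closure_iff.1 hx₀.1 r hr
    have h1 : 0 < (W a - W x₀) / 2 := by linarith [mem_ofPred_eq ▸ ha]
    refine ⟨_, h1, ?_⟩
    filter_upwards [((hW a).sub (hW x₀)).eventually (le_mem_nhds (half_lt_self (by linarith)))] with k hk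
    exact ⟨a, mem_ball'.2 ha', x₀, mem_ball_self hr, le_trans hk (le_abs_self _)⟩

end Crest.Agent.R193
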