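import Crest.Agent.R193.FD.Cyl

/-!
# R193/FD/Tile: the lifted cells tile the strip; descent of periodic functions
-/

set_option autoImplicit false
open Set Metric Filter Topology MeasureTheory

namespace Crest.Agent.R193

variable {Z : Type} [MetricSpace Z]

namespace Cyl
variable (C : Cyl Z) (Γ : Cov Z)

open Classical in
/-- net points whose cell meets the annulus -/
noncomputable def idx (k : ℕ) : Finset Z := (Γ.net k).filter fun x => ∃ a ∈ Γ.cell k x, C.lg a ∈ strip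

/-- the lifted cells -/
def tl (k : ℕ) (x : C.idx Γ k) : Set ℂ := C.σ x '' Γ.cell k x

/-- the level is fine enough -/
def Sm (k : ℕ) : Prop := 3 * Γ.L * sc k ≤ C.δ

theorem ev_le {a b : ℝ} (hb : 0 < b) : ∀ᶠ k in atTop, a * sc k ≤ b :=
  (tendsto_sc.const_mul a).eventually (ge_mem_nhds (by simpa using hb))

theorem ev_sm : ∀ᶠ k in atTop, C.Sm Γ k := ev_le C.δ_pos

variable {C Γ} {k : ℕ}

theorem mem_idx {x : Z} : x ∈ C.idx Γ k ↔ x ∈ Γ.net k ∧ ∃ a ∈ Γ.cell k x, C.lg a ∈ strip := by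
  simp only [idx, Finset.mem_filter]

theorem Sm.sub (h : C.Sm Γ k) (x : Z) : Γ.cell k x ⊆ ball x C.δ :=
  (Γ.sup k x).trans (ball_subset_ball (by
    have := mul_pos Γ.L_pos (sc_pos k)
    unfold Sm at h
    linarith))

theorem Sm.near (h : C.Sm Γ k) (x : C.idx Γ k) : C.Near x := by
  obtain ⟨a, ha, ha'⟩ := (mem_idx.1 x.2).2
  exact ⟨a, h.sub x ha, ha'⟩

theorem Sm.π_mem (h : C.Sm Γ k) {x : C.idx Γ k} {z : ℂ} (hz : z ∈ C.tl Γ k x) : C.π z ∈ Γ.cell k x := by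
  obtain ⟨y, hy, rfl⟩ := hz
  rwa [(h.near x).π_σ (h.sub x hy)]

theorem Sm.π_tile (h : C.Sm Γ k) {p : C.idx Γ k × ℤ} {z : ℂ} (hz : z ∈ tile (C.tl Γ k) p) :
    C.π z ∈ Γ.cell k p.1 := by
  have := h.π_mem hz
  rwa [← C.per _ p.2, sub_add_cancel] at this

theorem Sm.conn (h : C.Sm Γ k) (x : C.idx Γ k) : IsPreconnected (C.tl Γ k x) :=
  (Γ.conn k x).image _ ((C.sec _ (h.near x)).1.mono (h.sub x))

theorem Sm.norm_le (h : C.Sm Γ k) {x : C.idx Γ k} {z : ℂ} (hz : z ∈ C.tl Γ k x) : ‖z‖ ≤ 3 := by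
  obtain ⟨y, hy, rfl⟩ := hz
  exact ((C.sec _ (h.near x)).2 y (h.sub x hy)).2

theorem tiling (C : Cyl Z) (Γ : Cov Z) : ∃ N₀ : ℕ, ∀ k, C.Sm Γ k → Tiling (C.tl Γ k) N₀ := by
  classical
  obtain ⟨N, hN⟩ := Γ.card_le (2 * Γ.L)
  refine ⟨N, fun k h => ⟨fun x => (h.near x).isOpen (Γ.isOpen k x) (h.sub x), h.conn,
    fun x => (isBounded_closedBall (x := (0 : ℂ)) (r := 3)).subset fun z hz => mem_closedBall_zero_iff.2 (h.norm_le hz),
    fun z hz => ?_, fun p => ?_⟩⟩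
  · obtain ⟨x, hx, -, h1, -⟩ := Γ.exists_cell k (C.π z)
    have h2 := h1 (mem_ball_self (sc_pos k))
    have h3 : x ∈ C.idx Γ k := mem_idx.2 ⟨hx, _, h2, C.lg_mem.2 hz⟩
    obtain ⟨n, hn⟩ := C.fib ((h.near ⟨x, h3⟩).π_σ (h.sub x h2))
    exact ⟨(⟨x, h3⟩, -n), C.π z, h2, by rw [hn]; push_cast; ring⟩
  · have key : ∀ x : C.idx Γ k, ∃ n : ℤ, dist x.1 p.1.1 < 2 * Γ.L * sc k →
        ∀ z ∈ C.tl Γ k x, C.σ p.1 (C.π z) = z + n := fun x => by
      by_cases hx : dist x.1 p.1.1 < 2 * Γ.L * sc k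
      · obtain ⟨n, hn⟩ := (h.near p.1).sheet (h.conn x) fun z hz => by
          have h1 := Γ.sup k x (h.π_mem hz)
          rw [mem_ball] at h1 ⊢
          unfold Sm at h
          linarith [dist_triangle (C.π z) x p.1.1]
        exact ⟨n, fun _ => hn⟩
      · exact ⟨0, fun h => (hx h).elim⟩
    choose n hn using key
    refine ⟨(Finset.univ.filter fun x : C.idx Γ k => dist x.1 p.1.1 < 2 * Γ.L * sc k).image
      fun x => (x, p.2 + n x), Finset.card_image_le.trans ?_, fun p' ⟨z, hz, hz'⟩ => ?_⟩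
    · rw [← Finset.card_map (Function.Embedding.subtype _)]
      refine hN k p.1 _ fun a ha => ?_
      obtain ⟨x, hx, rfl⟩ := Finset.mem_map.1 ha
      exact ⟨(mem_idx.1 x.2).1, (Finset.mem_filter.1 hx).2⟩
    · have h1 := Γ.sup k _ (h.π_tile hz)
      have h2 := Γ.sup k _ (h.π_tile hz')
      have h3 : dist p'.1.1 p.1.1 < 2 * Γ.L * sc k := by
        rw [mem_ball] at h1 h2
        linarith [dist_triangle_left p'.1.1 p.1.1 (C.π z)]
      refine Finset.mem_image.2 ⟨p'.1, Finset.mem_filter.2 ⟨Finset.mem_univ _, h3⟩, Prod.ext rfl ?_⟩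
      have h4 := hn _ h3 _ hz'
      obtain ⟨y, hy, hy'⟩ := hz
      have h5 : C.π (z - p'.2) = y := by
        rw [← (h.near p.1).π_σ (h.sub _ hy), hy', ← C.per _ p'.2, ← C.per (z - p.2) p.2, sub_add_cancel, sub_add_cancel]
      rw [h5, hy'] at h4
      exact Int.cast_injective (α := ℂ) (by push_cast; linear_combination -h4)

/-- energies downstairs are bounded by sums over the tiles -/
theorem En_le {v : Z → ℝ} {W : Set Z} (T : Finset (C.idx Γ k)) (f : C.idx Γ k → ℝ)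
    (h : ∀ x ∈ Γ.net k, Γ.cell k x ⊆ W → osc v (Γ.cell k x) = 0 ∨
      ∃ hx : x ∈ C.idx Γ k, ⟨x, hx⟩ ∈ T ∧ osc v (Γ.cell k x) ≤ f ⟨x, hx⟩) : Γ.En k v W ≤ ∑ i ∈ T, f i ^ 2 := by
  classical
  let g : Z → ℝ := fun x => if hx : x ∈ C.idx Γ k then f ⟨x, hx⟩ ^ 2 else 0
  have hg : ∀ x (hx : x ∈ C.idx Γ k), f ⟨x, hx⟩ ^ 2 = g x := fun x hx => by simp only [g, dif_pos hx]
  have h1 : ∑ i ∈ T, f i ^ 2 = ∑ x ∈ T.map (Function.Embedding.subtype _), g x := by
    rw [Finset.sum_map]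
    exact Finset.sum_congr rfl fun i _ => hg i i.2
  rw [h1, Cov.En, ← Finset.sum_filter_ne_zero]
  have h2 : ∀ x ∈ ((Γ.net k).filter fun x => Γ.cell k x ⊆ W).filter fun x => osc v (Γ.cell k x) ^ 2 ≠ 0,
      ∃ hx : x ∈ C.idx Γ k, ⟨x, hx⟩ ∈ T ∧ osc v (Γ.cell k x) ≤ f ⟨x, hx⟩ := fun x hx => by
    simp only [Finset.mem_filter] at hx
    exact (h x hx.1.1 hx.1.2).resolve_left fun h0 => hx.2 (by rw [h0]; ring)
  refine (Finset.sum_le_sum fun x hx => ?_).trans (Finset.sum_le_sum_of_subset_of_nonneg (fun x hx => ?_)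
    fun x _ _ => by simp only [g]; split_ifs <;> positivity)
  · obtain ⟨h3, -, h4⟩ := h2 x hx
    exact (pow_le_pow_left₀ (osc_nonneg _ _) h4 2).trans_eq (hg x h3)
  · obtain ⟨h3, h4, -⟩ := h2 x hx
    exact Finset.mem_map.2 ⟨_, h4, rfl⟩

end Cyl

section out
variable {ι : Type} [Fintype ι] {c : ι → Set ℂ} {K I : ℝ} {w u : ℂ → ℝ}

theorem FRMout.w_int (h : FRMout c K w u I) (z : ℂ) (n : ℤ) : w (z + n) = w z := by
  have : Function.Periodic w 1 := h.w_per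
  simpa using this.int_mul n z

theorem add_int_mem {z : ℂ} (n : ℤ) : z + n ∈ strip ↔ z ∈ strip := by simp [strip]

theorem FRMout.u_int (h : FRMout c K w u I) {z : ℂ} (hz : z ∈ strip) (n : ℤ) : u (z + n) = u z + n * I := by
  induction n using Int.induction_on with
  | zero => simp
  | succ n ih =>
    have := h.u_per _ ((add_int_mem n).2 hz)
    push_cast at *
    rw [← add_assoc, this, ih]
    ring
  | pred n ih =>
    have := h.u_per _ ((add_int_mem (-n - 1)).2 hz)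
    push_cast at *
    rw [show z + (-n - 1) + 1 = z + -n by ring, ih] at this
    linarith

theorem FRMout.bddW (h : FRMout c K w u I) {X : Type} (f : X → ℂ) : Bdd fun y => w (f y) :=
  ⟨1, fun y => abs_le.2 ⟨by linarith [(h.w_mem (f y)).1], (h.w_mem (f y)).2⟩⟩

theorem FRMout.mem_strip (h : FRMout c K w u I) {z : ℂ} (h0 : 0 < w z) (h1 : w z < 1) : z ∈ strip :=
  ⟨not_lt.1 fun h2 => h0.ne' (h.w_bot z h2), not_lt.1 fun h2 => h1.ne (h.w_top z h2)⟩

theorem FRMout.dn (h : FRMout c K w u I) (C : Cyl Z) (z : ℂ) : w (C.lg (C.π z)) = w z := by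
  obtain ⟨n, hn⟩ := C.lg_π z
  rw [hn, h.w_int]

end out

namespace Cyl
variable {C : Cyl Z} {Γ : Cov Z} {k : ℕ} {K I : ℝ} {w u : ℂ → ℝ}

theorem Sm.osc_dn (h : C.Sm Γ k) (ho : FRMout (C.tl Γ k) K w u I) (x : C.idx Γ k) :
    osc (fun y => w (C.lg y)) (Γ.cell k x) = osc w (C.tl Γ k x) := by
  rw [tl, ← osc_comp]
  exact osc_congr fun y hy => by rw [← ho.dn C (C.σ x y), (h.near x).π_σ (h.sub x hy)]

theorem osc_zero (ho : FRMout (C.tl Γ k) K w u I) {x : Z} (hx : x ∈ Γ.net k) (hx' : x ∉ C.idx Γ k) :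
    osc (fun y => w (C.lg y)) (Γ.cell k x) = 0 := by
  have h1 : IsOpen {y | (C.lg y).im < 0} := by
    convert isOpen_lt C.H_cont (continuous_const (y := (0 : ℝ))) using 2 with y
    simp only [max_lt_iff, min_lt_iff]
    norm_num
  have h2 : IsOpen {y | 1 < (C.lg y).im} := by
    convert isOpen_lt (continuous_const (y := (1 : ℝ))) C.H_cont using 2 with y
    simp only [lt_max_iff, lt_min_iff]
    norm_num
  refine le_antisymm (osc_le le_rfl fun a ha b hb => ?_) (osc_nonneg _ _)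
  rcases (Γ.conn k x).subset_or_subset h1 h2
    (disjoint_left.2 fun y (h : (C.lg y).im < 0) (h' : 1 < (C.lg y).im) => by linarith)
    (fun y hy => by
      by_contra h3
      simp only [mem_union, mem_ofPred_eq, not_or, not_lt] at h3
      exact hx' (mem_idx.2 ⟨hx, y, hy, h3⟩)) with h3 | h3
  · rw [ho.w_bot _ (h3 ha), ho.w_bot _ (h3 hb), sub_self]
  · rw [ho.w_top _ (h3 ha), ho.w_top _ (h3 hb), sub_self]

theorem Sm.En_dn (h : C.Sm Γ k) (ho : FRMout (C.tl Γ k) K w u I) (W : Set Z) :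
    Γ.En k (fun y => w (C.lg y)) W ≤ I := by
  rw [ho.I_eq]
  refine En_le _ _ fun x hx _ => ?_
  by_cases hx' : x ∈ C.idx Γ k
  · exact Or.inr ⟨hx', Finset.mem_univ _, (h.osc_dn ho ⟨x, hx'⟩).le⟩
  · exact Or.inl (osc_zero ho hx hx')

end Cyl

end Crest.Agent.R193
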